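import Vale.Agent.P069.Defs

/-!
# General facts on closed subspaces of finite codimension
-/

open Filter Topology

namespace Vale.Agent.P069

variable {X : Type*} [NormedAddCommGroup X] [NormedSpace ℝ X]

lemma isCof_ker {V : Type*} [NormedAddCommGroup V] [NormedSpace ℝ V] [FiniteDimensional ℝ V]
    (Φ : X →L[ℝ] V) : IsCof (LinearMap.ker Φ.toLinearMap) := by
  refine ⟨?_, ?_⟩
  · exact Φ.isClosed_ker
  · exact LinearEquiv.finiteDimensional (Φ.toLinearMap.quotKerEquivRange.symm)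

/-- A weakly null sequence is eventually close to any `F ∈ cof(X)`. -/
lemma exists_close_of_weakNull {F : Submodule ℝ X} (hF : IsCof F) (z : ℕ → X)
    (hz : ∀ f : StrongDual ℝ X, Tendsto (fun c => f (z c)) atTop (𝓝 0)) {ε : ℝ} (hε : 0 < ε) :
    ∃ c, ∃ y₀ ∈ F, ‖z c - y₀‖ < ε := by
  have hcl : IsClosed (F : Set X) := hF.1
  have hfd : FiniteDimensional ℝ (X ⧸ F) := hF.2
  let π : X →L[ℝ] (X ⧸ F) :=
    (F.mkQ).mkContinuous 1 (fun x => by
      rw [one_mul]
      exact Submodule.Quotient.norm_mk_le F x)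
  let b := Module.finBasis ℝ (X ⧸ F)
  let fc : Fin (Module.finrank ℝ (X ⧸ F)) → StrongDual ℝ X := fun i =>
    (⟨b.coord i, LinearMap.continuous_of_finiteDimensional _⟩ : (X ⧸ F) →L[ℝ] ℝ).comp π
  have hrep : ∀ c, π (z c) = ∑ i, fc i (z c) • b i := fun c => (b.sum_repr (π (z c))).symm
  have hlim : Tendsto (fun c => π (z c)) atTop (𝓝 0) := by
    have h1 : Tendsto (fun c => ∑ i, fc i (z c) • b i) atTop (𝓝 (∑ i, (0 : ℝ) • b i)) :=
      tendsto_finsetSum _ fun i _ => (hz (fc i)).smul_const (b i)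
    simp only [zero_smul, Finset.sum_const_zero] at h1
    exact h1.congr fun c => (hrep c).symm
  have hev := (Metric.tendsto_nhds.mp hlim) (ε / 2) (by positivity)
  obtain ⟨c, hc⟩ := hev.exists
  rw [dist_zero_right] at hc
  obtain ⟨m, hm, hmn⟩ := Submodule.Quotient.norm_mk_lt (π (z c)) (half_pos hε)
  refine ⟨c, z c - m, ?_, ?_⟩
  · have h2 : Submodule.Quotient.mk (p := F) m = Submodule.Quotient.mk (z c) := hm
    rw [Submodule.Quotient.eq] at h2
    have := F.neg_mem h2
    simpa using this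
  · have : z c - (z c - m) = m := by abel
    rw [this]
    linarith

lemma isCof_bot_of_finiteDimensional [FiniteDimensional ℝ X] : IsCof (⊥ : Submodule ℝ X) := by
  refine ⟨?_, inferInstance⟩
  simp

/-- Convexity along a segment: if `N (x + t y) ≥ 1 + δ`, `N x = 1` and `s ≥ t > 0` then
`N (x + s y) ≥ 1 + δ`. -/
lemma convex_step {N : X → ℝ} (hadd : ∀ x y, N (x + y) ≤ N x + N y)
    (hsmul : ∀ (c : ℝ) (x : X), N (c • x) = |c| * N x) {x y : X} {t s δ : ℝ} (hx : N x = 1)
    (ht : 0 < t) (hts : t ≤ s) (hδ : 0 ≤ δ) (h : 1 + δ ≤ N (x + t • y)) :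
    1 + δ ≤ N (x + s • y) := by
  have hs : 0 < s := ht.trans_le hts
  set lam := t / s with hlam
  have hlam0 : 0 < lam := by positivity
  have hlam1 : lam ≤ 1 := (div_le_one hs).mpr hts
  have heq : x + t • y = (1 - lam) • x + lam • (x + s • y) := by
    rw [smul_add, smul_smul, hlam, div_mul_cancel₀ _ hs.ne', sub_smul, one_smul]
    abel
  have h1 : N (x + t • y) ≤ (1 - lam) * 1 + lam * N (x + s • y) := by
    rw [heq]
    refine (hadd _ _).trans ?_
    rw [hsmul, hsmul, hx, abs_of_nonneg (by linarith : 0 ≤ 1 - lam), abs_of_pos hlam0]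
  have h2 : lam * (1 + δ) ≤ lam * N (x + s • y) := by nlinarith
  exact le_of_mul_le_mul_left h2 hlam0

end Vale.Agent.P069
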