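import Vale.Agent.P069.Space
import Vale.Agent.P069.General

/-!
# The norm of `XSpace` is asymptotically midpoint uniformly convex
-/

open scoped InnerProductSpace ENNReal

namespace Vale.Agent.P069

/-- The finitely supported elements of `XSpace`. -/
noncomputable def finSupp : Submodule ℝ XSpace where
  carrier := {x | ∃ Z : Finset (ℕ × List ℕ), ∀ n u, (n, u) ∉ Z → cc x n u = 0}
  add_mem' := by
    rintro x y ⟨Z₁, h₁⟩ ⟨Z₂, h₂⟩
    classical
    refine ⟨Z₁ ∪ Z₂, fun n u h => ?_⟩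
    rw [Finset.mem_union, not_or] at h
    rw [cc_add, h₁ n u h.1, h₂ n u h.2, add_zero]
  zero_mem' := ⟨∅, fun _ _ _ => rfl⟩
  smul_mem' := by
    rintro c x ⟨Z, h⟩
    exact ⟨Z, fun n u hu => by rw [cc_smul, h n u hu, mul_zero]⟩

/-- The embedding of `L2` as the `n`-th summand of `XSpace`. -/
noncomputable def emb (n : ℕ) : L2 →L[ℝ] XSpace :=
  (lp.singleContinuousLinearMap ℝ (fun n : ℕ => TreeSpace n) 2 n).comp
    ((TreeSpace.equivL2 n).symm : L2 →L[ℝ] TreeSpace n)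

lemma emb_apply (n : ℕ) (b : L2) : emb n b = lp.single 2 n ((TreeSpace.toL2 n).symm b) := rfl

lemma norm_emb (n : ℕ) (b : L2) : ‖emb n b‖ = treeNorm n b := by
  rw [emb_apply, lp.norm_single (by norm_num)]
  rfl

lemma cc_emb (n m : ℕ) (b : L2) (u : List ℕ) : cc (emb n b) m u = if m = n then b u else 0 := by
  unfold cc
  rw [emb_apply, lp.single_apply]
  split_ifs with h
  · subst h; simp
  · simp [Pi.single_eq_of_ne h]

lemma emb_single_mem (n : ℕ) (u : List ℕ) (c : ℝ) : emb n (lp.single 2 u c) ∈ finSupp := by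
  classical
  refine ⟨{(n, u)}, fun m v h => ?_⟩
  rw [cc_emb]
  split_ifs with hm
  · subst hm
    rw [lp.single_apply]
    have hv : v ≠ u := fun e => h (by simp [e])
    simp [Pi.single_eq_of_ne hv]
  · rfl

lemma mem_of_hasSum {ι : Type*} {W : Submodule ℝ XSpace} (hW : IsClosed (W : Set XSpace))
    {f : ι → XSpace} {a : XSpace} (h : HasSum f a) (hf : ∀ i, f i ∈ W) : a ∈ W :=
  hW.mem_of_tendsto h (Filter.Eventually.of_forall fun _ => W.sum_mem fun i _ => hf i)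

lemma all_mem_closure (x : XSpace) : x ∈ finSupp.topologicalClosure := by
  have hcl := finSupp.isClosed_topologicalClosure
  refine mem_of_hasSum hcl (lp.hasSum_single (by norm_num) x) fun n => ?_
  have h1 : lp.single 2 n (x n) = emb n (TreeSpace.toL2 n (x n)) := by
    rw [emb_apply]; simp
  rw [h1]
  have h2 := (emb n).hasSum (lp.hasSum_single (p := 2) (by norm_num) (TreeSpace.toL2 n (x n)))
  exact mem_of_hasSum hcl h2 fun u => finSupp.le_topologicalClosure (emb_single_mem n u _)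

/-- The norm of `XSpace` is AMUC. -/
theorem xSpace_isAMUC : IsAMUC (fun x : XSpace => ‖x‖) := by
  intro t ht
  set c := min (t ^ 2 / 16) 1 with hc
  have hc0 : 0 < c := lt_min (by positivity) one_pos
  have hc1 : c ≤ 1 := min_le_right _ _
  have hct : c ≤ t ^ 2 / 16 := min_le_left _ _
  refine ⟨c / 8, by positivity, fun x hx => ?_⟩
  simp only at hx
  obtain ⟨x', ⟨Z, hZ⟩, hd⟩ :=
    Metric.mem_closure_iff.mp (all_mem_closure x) (c / 8) (by positivity)
  rw [dist_eq_norm] at hd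
  classical
  set Z' : Finset (ℕ × List ℕ) :=
    Z.biUnion (fun p => p.2.tails.toFinset.image (Prod.mk p.1)) with hZ'
  have hmem : ∀ n l, (n, l) ∈ Z' ↔ ∃ l₀, (n, l₀) ∈ Z ∧ l <:+ l₀ := by
    intro n l
    simp only [hZ', Finset.mem_biUnion, Finset.mem_image, List.mem_toFinset, List.mem_tails,
      Prod.mk.injEq]
    constructor
    · rintro ⟨⟨m, l₀⟩, hp, v, hv, rfl, rfl⟩
      exact ⟨l₀, hp, hv⟩
    · rintro ⟨l₀, hp, hl⟩
      exact ⟨(n, l₀), hp, l, hl, rfl, rfl⟩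
  have hsub : ∀ n l, (n, l) ∈ Z → (n, l) ∈ Z' := fun n l h =>
    (hmem n l).mpr ⟨l, h, List.suffix_refl l⟩
  have htail : ∀ n a l, (n, a :: l) ∈ (Z' : Set (ℕ × List ℕ)) → (n, l) ∈ (Z' : Set (ℕ × List ℕ)) := by
    intro n a l h
    obtain ⟨l₀, hp, hl⟩ := (hmem n (a :: l)).mp h
    exact (hmem n l).mpr ⟨l₀, hp, (List.suffix_cons a l).trans hl⟩
  let Φ : XSpace →L[ℝ] (↥Z' → ℝ) :=
    ContinuousLinearMap.pi (fun p => coord p.1.1 p.1.2)
  refine ⟨LinearMap.ker Φ.toLinearMap, isCof_ker Φ, fun y hy hy1 => ?_⟩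
  simp only at hy1 ⊢
  have hy0 : ∀ n u, (n, u) ∈ (Z' : Set (ℕ × List ℕ)) → cc y n u = 0 := fun n u h =>
    congrFun (LinearMap.mem_ker.mp hy) ⟨(n, u), h⟩
  have key := key_inequality_sum (Z := (Z' : Set (ℕ × List ℕ))) htail (x := x') (y := t • y)
    (fun n u hu => hZ n u fun h => hu (hsub n u h))
    (fun n u hu => by rw [cc_smul, hy0 n u hu, mul_zero])
  rw [norm_smul, hy1, mul_one, Real.norm_eq_abs, abs_of_pos ht] at key
  set d := ‖x - x'‖ with hdd
  set M := max ‖x + t • y‖ ‖x - t • y‖ with hM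
  have hM1 : ‖x' + t • y‖ ≤ M + d := by
    have h1 : x' + t • y = (x + t • y) - (x - x') := by abel
    rw [h1]
    exact (norm_sub_le _ _).trans (add_le_add (le_max_left _ _) le_rfl)
  have hM2 : ‖x' - t • y‖ ≤ M + d := by
    have h1 : x' - t • y = (x - t • y) - (x - x') := by abel
    rw [h1]
    exact (norm_sub_le _ _).trans (add_le_add (le_max_right _ _) le_rfl)
  have hx' : 1 - d ≤ ‖x'‖ := by
    have h1 : x = x' + (x - x') := by abel
    have h2 : ‖x‖ ≤ ‖x'‖ + d := by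
      conv_lhs => rw [h1]
      exact norm_add_le _ _
    linarith
  have hd0 : 0 ≤ d := norm_nonneg _
  have hdc : d < c / 8 := hd
  by_contra hcon
  rw [not_le] at hcon
  have hM0 : 0 ≤ M := le_max_of_le_left (norm_nonneg _)
  have h1 : ‖x' + t • y‖ ^ 2 ≤ (M + d) ^ 2 := pow_le_pow_left₀ (norm_nonneg _) hM1 2
  have h2 : ‖x' - t • y‖ ^ 2 ≤ (M + d) ^ 2 := pow_le_pow_left₀ (norm_nonneg _) hM2 2
  have h3 : (1 - d) ^ 2 ≤ ‖x'‖ ^ 2 :=
    pow_le_pow_left₀ (by linarith : (0 : ℝ) ≤ 1 - d) hx' 2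
  have h4 : (M + d) ^ 2 < (1 + c / 8 + c / 8) ^ 2 :=
    pow_lt_pow_left₀ (by linarith) (by positivity) (by norm_num)
  have h5 : (1 - c / 8) ^ 2 ≤ (1 - d) ^ 2 :=
    pow_le_pow_left₀ (by linarith) (by linarith) 2
  have h6 : 2 * (1 - c / 8) ^ 2 + 2 * c ≤ 2 * (1 + c / 8 + c / 8) ^ 2 := by
    have : 2 * (1 - d) ^ 2 + t ^ 2 / 8 < 2 * (1 + c / 8 + c / 8) ^ 2 := by
      linarith
    linarith
  nlinarith

end Vale.Agent.P069
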