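import Mathlib

/-!
# P069: asymptotic uniform convexity and asymptotic midpoint uniform convexity (definitions)
-/

namespace Vale.Agent.P069

variable {X : Type*} [NormedAddCommGroup X] [NormedSpace ℝ X]

/-- `F` belongs to `cof(X)`: a closed linear subspace of finite codimension. -/
def IsCof (F : Submodule ℝ X) : Prop :=
  IsClosed (F : Set X) ∧ FiniteDimensional ℝ (X ⧸ F)

/-- `N` is a norm on `X` equivalent to the given norm. -/
def IsEquivalentNorm (N : X → ℝ) : Prop :=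
  (∀ x y, N (x + y) ≤ N x + N y) ∧ (∀ (c : ℝ) (x : X), N (c • x) = |c| * N x) ∧
    ∃ a b : ℝ, 0 < a ∧ 0 < b ∧ ∀ x, a * ‖x‖ ≤ N x ∧ N x ≤ b * ‖x‖

/-- `δ̄_N(t) > 0` for all `t > 0`, with the infimum and supremum written out: for each `t > 0` there
is `δ > 0` such that each `x` with `N x = 1` has `F ∈ cof(X)` with `N (x + t y) ≥ 1 + δ` for all
`y ∈ F` with `N y = 1`. -/
def IsAUC (N : X → ℝ) : Prop :=
  ∀ t : ℝ, 0 < t → ∃ δ : ℝ, 0 < δ ∧ ∀ x : X, N x = 1 →
    ∃ F : Submodule ℝ X, IsCof F ∧ ∀ y ∈ F, N y = 1 → 1 + δ ≤ N (x + t • y)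

/-- `m_N(t) > 0` for all `t > 0`, with the infimum and supremum written out: for each `t > 0` there
is `δ > 0` such that each `x` with `N x = 1` has `F ∈ cof(X)` with
`max (N (x + t y)) (N (x - t y)) ≥ 1 + δ` for all `y ∈ F` with `N y = 1`. -/
def IsAMUC (N : X → ℝ) : Prop :=
  ∀ t : ℝ, 0 < t → ∃ δ : ℝ, 0 < δ ∧ ∀ x : X, N x = 1 →
    ∃ F : Submodule ℝ X, IsCof F ∧ ∀ y ∈ F, N y = 1 → 1 + δ ≤ max (N (x + t • y)) (N (x - t • y))

/-- `X` is reflexive: the canonical map into the bidual is onto. -/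
def IsReflexive (X : Type*) [NormedAddCommGroup X] [NormedSpace ℝ X] : Prop :=
  Function.Surjective (NormedSpace.inclusionInDoubleDual ℝ X)

end Vale.Agent.P069
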