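import Vale.Agent.P069.Tree

/-!
# The key inequality for the height `n` norm
-/

open scoped InnerProductSpace ENNReal

namespace Vale.Agent.P069

lemma memℓp_of_dominated {f : List ℕ → ℝ} {g : L2} (h : ∀ u, |f u| ≤ |g u|) :
    Memℓp f 2 := by
  have hs := (lp.memℓp g).summable (by norm_num : 0 < (2 : ℝ≥0∞).toReal)
  refine memℓp_gen (hs.of_nonneg_of_le (fun i => by positivity) (fun i => ?_))
  rw [Real.norm_eq_abs, Real.norm_eq_abs]
  exact Real.rpow_le_rpow (abs_nonneg _) (h i) (by norm_num)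

/-- An element of `L2` with prescribed coordinates, dominated by an element of `L2`. -/
noncomputable def ofDominated (f : List ℕ → ℝ) (g : L2) (h : ∀ u, |f u| ≤ |g u|) : L2 :=
  ⟨f, memℓp_of_dominated h⟩

@[simp] lemma ofDominated_apply (f : List ℕ → ℝ) (g : L2) (h : ∀ u, |f u| ≤ |g u|) (u : List ℕ) :
    ofDominated f g h u = f u := rfl

lemma norm_ofDominated_le (f : List ℕ → ℝ) (g : L2) (h : ∀ u, |f u| ≤ |g u|) :
    ‖ofDominated f g h‖ ≤ ‖g‖ :=
  lp.norm_mono (by norm_num) (fun u => by simpa using h u)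

lemma inner_eq_tsum_mul (f g : L2) : ⟪f, g⟫_ℝ = ∑' u, f u * g u := by
  rw [lp.inner_eq_tsum]
  refine tsum_congr fun u => ?_
  simp [mul_comm]

lemma inner_congr_left {f f' y : L2} (h : ∀ u, f u * y u = f' u * y u) : ⟪f, y⟫_ℝ = ⟪f', y⟫_ℝ := by
  rw [inner_eq_tsum_mul, inner_eq_tsum_mul]
  exact tsum_congr h

lemma inner_eq_zero_of_pointwise {f y : L2} (h : ∀ u, f u * y u = 0) : ⟪f, y⟫_ℝ = 0 := by
  rw [inner_eq_tsum_mul]
  simp [h]

section Restrict

open Classical in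
/-- The restriction of `φ` to the set of nodes `A`. -/
noncomputable def restrict (A : Set (List ℕ)) (φ : L2) : L2 :=
  ofDominated (fun u => if u ∈ A then φ u else 0) φ (fun u => by
    split_ifs
    · exact le_rfl
    · simp)

open Classical in
lemma restrict_apply (A : Set (List ℕ)) (φ : L2) (u : List ℕ) :
    restrict A φ u = if u ∈ A then φ u else 0 := rfl

lemma restrict_of_mem {A : Set (List ℕ)} (φ : L2) {u : List ℕ} (h : u ∈ A) :
    restrict A φ u = φ u := by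
  classical
  rw [restrict_apply, if_pos h]

lemma restrict_of_not_mem {A : Set (List ℕ)} (φ : L2) {u : List ℕ} (h : u ∉ A) :
    restrict A φ u = 0 := by
  classical
  rw [restrict_apply, if_neg h]

variable {A : Set (List ℕ)}

lemma pathSum_restrict_of_mem (hA : ∀ a l, a :: l ∈ A → l ∈ A) (φ : L2) {l : List ℕ} (hl : l ∈ A) :
    pathSum (restrict A φ) l = pathSum φ l := by
  induction l with
  | nil => simp only [pathSum]; exact restrict_of_mem φ hl
  | cons a l ih =>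
    simp only [pathSum]
    rw [restrict_of_mem φ hl, ih (hA a l hl)]

lemma abs_pathSum_restrict_le (hA : ∀ a l, a :: l ∈ A → l ∈ A) {n : ℕ} {φ : L2}
    (hφ : ∀ l : List ℕ, l.length ≤ n → |pathSum φ l| ≤ 1) (l : List ℕ) (hl : l.length ≤ n) :
    |pathSum (restrict A φ) l| ≤ 1 := by
  induction l with
  | nil =>
    by_cases h : ([] : List ℕ) ∈ A
    · rw [pathSum_restrict_of_mem hA φ h]; exact hφ _ hl
    · simp only [pathSum]; rw [restrict_of_not_mem φ h]; simp
  | cons a l ih =>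
    by_cases h : (a :: l) ∈ A
    · rw [pathSum_restrict_of_mem hA φ h]; exact hφ _ hl
    · simp only [pathSum]
      rw [restrict_of_not_mem φ h, zero_add]
      exact ih (by simp only [List.length_cons] at hl; omega)

lemma restrict_mem_dualBall (hA : ∀ a l, a :: l ∈ A → l ∈ A) {n : ℕ} {φ : L2}
    (hφ : φ ∈ dualBall n) : restrict A φ ∈ dualBall n :=
  ⟨(norm_ofDominated_le _ _ _).trans hφ.1, abs_pathSum_restrict_le hA hφ.2⟩

end Restrict

/-- Discrete derivative along the tree. -/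
def delta (r : List ℕ → ℝ) : List ℕ → ℝ
  | [] => r []
  | a :: l => r (a :: l) - r l

lemma pathSum_delta (r : List ℕ → ℝ) (l : List ℕ) : pathSum (delta r) l = r l := by
  induction l with
  | nil => rfl
  | cons a l ih => simp only [pathSum, delta, ih]; ring

lemma delta_pathSum (g : List ℕ → ℝ) (u : List ℕ) : delta (pathSum g) u = g u := by
  cases u with
  | nil => rfl
  | cons a l => simp only [delta, pathSum]; ring

lemma pathSum_eq_zero_of_mem {A : Set (List ℕ)} (hA : ∀ a l, a :: l ∈ A → l ∈ A)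
    {g : List ℕ → ℝ} (hg : ∀ u ∈ A, g u = 0) {l : List ℕ} (hl : l ∈ A) : pathSum g l = 0 := by
  induction l with
  | nil => simpa [pathSum] using hg _ hl
  | cons a l ih =>
    simp only [pathSum]
    rw [hg _ hl, ih (hA a l hl), add_zero]

/-- The transport of a sign pattern through the tree. -/
lemma delta_sign_bound {A : Set (List ℕ)} (p Q : List ℕ → ℝ) (T₁ T₂ : ℝ → ℝ)
    (hT₁ : ∀ a b, |T₁ a - T₁ b| ≤ |a - b|) (hT₂ : ∀ a b, |T₂ a - T₂ b| ≤ |a - b|)
    (hT₁0 : T₁ 0 = 0) (hT₂0 : T₂ 0 = 0)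
    (hA : ∀ a l, a :: l ∈ A → l ∈ A)
    (hp : ∀ a l, a :: l ∉ A → p (a :: l) = p l) (hQ : ∀ l ∈ A, Q l = 0) (u : List ℕ) :
    |delta (fun l => if 0 ≤ p l then T₁ (Q l) else T₂ (Q l)) u| ≤ |delta Q u| := by
  cases u with
  | nil =>
    simp only [delta]
    split_ifs
    · have := hT₁ (Q []) 0
      simpa [hT₁0] using this
    · have := hT₂ (Q []) 0
      simpa [hT₂0] using this
  | cons a l =>
    simp only [delta]
    by_cases h : (a :: l) ∈ A
    · rw [hQ _ h, hQ _ (hA a l h)]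
      simp [hT₁0, hT₂0]
    · rw [hp a l h]
      split_ifs
      · exact hT₁ _ _
      · exact hT₂ _ _

lemma abs_min_zero_sub (a b : ℝ) : |min a 0 - min b 0| ≤ |a - b| := by
  rcases le_total a 0 with ha | ha <;> rcases le_total b 0 with hb | hb <;>
    simp only [min_eq_left, min_eq_right, ha, hb, sub_self, sub_zero, zero_sub, abs_zero, abs_neg,
      abs_nonneg] <;> [skip; skip; skip] <;>
    · rw [abs_le]
      first
        | (constructor <;> cases abs_cases (a - b) <;> linarith)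

lemma abs_max_zero_sub (a b : ℝ) : |max a 0 - max b 0| ≤ |a - b| := by
  have := abs_min_zero_sub (-a) (-b)
  have h1 : min (-a) 0 = - max a 0 := by
    rw [← neg_zero, min_neg_neg, neg_zero]
  have h2 : min (-b) 0 = - max b 0 := by
    rw [← neg_zero, min_neg_neg, neg_zero]
  rw [h1, h2] at this
  have h3 : - max a 0 - - max b 0 = -(max a 0 - max b 0) := by ring
  have h4 : -a - -b = -(a - b) := by ring
  rwa [h3, h4, abs_neg, abs_neg] at this

/-- The inequality behind the optimal choice of the pair `(α, β)`. -/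
lemma sq_add_sq_le_of_forall {a u L : ℝ}
    (hL : ∀ α β : ℝ, 0 ≤ α → 0 ≤ β → α ^ 2 + β ^ 2 ≤ 1 → α * a + β * u ≤ L) :
    (max a 0) ^ 2 + (max u 0) ^ 2 ≤ L ^ 2 := by
  set a' := max a 0 with ha'
  set u' := max u 0 with hu'
  have ha0 : 0 ≤ a' := le_max_right _ _
  have hu0 : 0 ≤ u' := le_max_right _ _
  have haa : a' * a = a' ^ 2 := by
    rcases le_total a 0 with h | h
    · have : a' = 0 := max_eq_right h
      rw [this]; ring
    · have : a' = a := max_eq_left h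
      rw [this]; ring
  have huu : u' * u = u' ^ 2 := by
    rcases le_total u 0 with h | h
    · have : u' = 0 := max_eq_right h
      rw [this]; ring
    · have : u' = u := max_eq_left h
      rw [this]; ring
  set s := Real.sqrt (a' ^ 2 + u' ^ 2) with hs
  have hnn : 0 ≤ a' ^ 2 + u' ^ 2 := by positivity
  have hs2 : s ^ 2 = a' ^ 2 + u' ^ 2 := Real.sq_sqrt hnn
  rcases (Real.sqrt_nonneg (a' ^ 2 + u' ^ 2)).eq_or_lt with h0 | hpos
  · have : s = 0 := h0.symm
    have h3 : a' ^ 2 + u' ^ 2 = 0 := by rw [← hs2, this]; ring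
    rw [h3]
    positivity
  · have hpos' : 0 < s := hpos
    have h := hL (a' / s) (u' / s) (by positivity) (by positivity) (by
      rw [div_pow, div_pow, ← add_div, ← hs2]
      rw [div_self (by positivity)])
    have h2 : a' / s * a + u' / s * u = s := by
      have : a' / s * a + u' / s * u = (a' * a + u' * u) / s := by field_simp
      rw [this, haa, huu, ← hs2]
      field_simp
    rw [h2] at h
    rw [← hs2]
    exact pow_le_pow_left₀ hpos'.le h 2

lemma treeNorm_sq_le {n : ℕ} {b : L2} {C : ℝ}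
    (h : ∀ φ ∈ dualBall n, (max ⟪φ, b⟫_ℝ 0) ^ 2 ≤ C) : treeNorm n b ^ 2 ≤ C := by
  have hC : 0 ≤ C := (by positivity : (0 : ℝ) ≤ (max ⟪(0 : L2), b⟫_ℝ 0) ^ 2).trans
    (h 0 (zero_mem_dualBall n))
  have : treeNorm n b ≤ Real.sqrt C := by
    refine treeNorm_le fun φ hφ => ?_
    refine (le_max_left _ (0 : ℝ)).trans (Real.le_sqrt_of_sq_le (h φ hφ))
  calc treeNorm n b ^ 2 ≤ Real.sqrt C ^ 2 := pow_le_pow_left₀ (treeNorm_nonneg n b) this 2
    _ = C := Real.sq_sqrt hC

/-- The combination lemma: a member of the dual ball built from orthogonal pieces. -/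
lemma combo_mem_dualBall {n : ℕ} {φ' ψ' : L2} (horth : ⟪φ', ψ'⟫_ℝ = 0) (hφ' : ‖φ'‖ ≤ 1)
    (hψ' : ‖ψ'‖ ≤ 1) {α β : ℝ} (hα : 0 ≤ α) (hβ : 0 ≤ β) (hαβ : α ^ 2 + β ^ 2 ≤ 1)
    (hpath : ∀ l : List ℕ, l.length ≤ n → |α * pathSum φ' l + β * pathSum ψ' l| ≤ 1) :
    α • φ' + β • ψ' ∈ dualBall n := by
  constructor
  · have h1 : ‖α • φ' + β • ψ'‖ ^ 2 ≤ 1 := by
      rw [@norm_add_sq_real, norm_smul, norm_smul, real_inner_smul_left, real_inner_smul_right,
        horth, Real.norm_eq_abs, Real.norm_eq_abs, abs_of_nonneg hα, abs_of_nonneg hβ]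
      have h2 : ‖φ'‖ ^ 2 ≤ 1 := pow_le_one₀ (norm_nonneg _) hφ'
      have h3 : ‖ψ'‖ ^ 2 ≤ 1 := pow_le_one₀ (norm_nonneg _) hψ'
      have h4 : α ^ 2 * ‖φ'‖ ^ 2 ≤ α ^ 2 * 1 := by gcongr
      have h5 : β ^ 2 * ‖ψ'‖ ^ 2 ≤ β ^ 2 * 1 := by gcongr
      nlinarith
    exact (sq_le_one_iff₀ (norm_nonneg _)).mp h1
  · intro l hl
    have h1 : (⇑(α • φ' + β • ψ') : List ℕ → ℝ) = (α • (⇑φ')) + (β • (⇑ψ')) := by
      ext u; simp; rfl
    rw [h1, pathSum_add, pathSum_smul, pathSum_smul]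
    exact hpath l hl

section KeyPiece

variable {A : Set (List ℕ)}

open Classical in
/-- The part of `ψ` off `A`, halved. -/
noncomputable def offHalf (A : Set (List ℕ)) (ψ : L2) : L2 :=
  ofDominated (fun u => if u ∈ A then 0 else ψ u / 2) ψ (fun u => by
    split_ifs
    · simp
    · rw [abs_div]
      have : |(2 : ℝ)| = 2 := by norm_num
      rw [this]
      have := abs_nonneg (ψ u)
      linarith)

open Classical in
lemma offHalf_apply (A : Set (List ℕ)) (ψ : L2) (u : List ℕ) :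
    offHalf A ψ u = if u ∈ A then 0 else ψ u / 2 := rfl

lemma offHalf_of_mem (ψ : L2) {u : List ℕ} (h : u ∈ A) : offHalf A ψ u = 0 := by
  classical
  rw [offHalf_apply, if_pos h]

lemma offHalf_of_not_mem (ψ : L2) {u : List ℕ} (h : u ∉ A) : offHalf A ψ u = ψ u / 2 := by
  classical
  rw [offHalf_apply, if_neg h]

lemma pathSum_offHalf (A : Set (List ℕ)) (ψ : L2) (l : List ℕ) :
    pathSum (offHalf A ψ) l = (pathSum ψ l - pathSum (restrict A ψ) l) / 2 := by
  induction l with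
  | nil =>
    simp only [pathSum]
    by_cases h : ([] : List ℕ) ∈ A
    · rw [offHalf_of_mem ψ h, restrict_of_mem ψ h]; ring
    · rw [offHalf_of_not_mem ψ h, restrict_of_not_mem ψ h]; ring
  | cons a l ih =>
    simp only [pathSum]
    rw [ih]
    by_cases h : (a :: l) ∈ A
    · rw [offHalf_of_mem ψ h, restrict_of_mem ψ h]; ring
    · rw [offHalf_of_not_mem ψ h, restrict_of_not_mem ψ h]; ring

lemma abs_pathSum_offHalf_le (hA : ∀ a l, a :: l ∈ A → l ∈ A) {n : ℕ} {ψ : L2}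
    (hψ : ψ ∈ dualBall n) (l : List ℕ) (hl : l.length ≤ n) : |pathSum (offHalf A ψ) l| ≤ 1 := by
  rw [pathSum_offHalf, abs_div, abs_of_pos (by norm_num : (0 : ℝ) < 2), div_le_one (by norm_num)]
  calc |pathSum ψ l - pathSum (restrict A ψ) l|
      ≤ |pathSum ψ l| + |pathSum (restrict A ψ) l| := abs_sub _ _
    _ ≤ 1 + 1 := add_le_add (hψ.2 l hl) (abs_pathSum_restrict_le hA hψ.2 l hl)
    _ = 2 := by norm_num

/-- The first sign pattern. -/
noncomputable def rOne (p Q : List ℕ → ℝ) (l : List ℕ) : ℝ :=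
  if 0 ≤ p l then min (Q l) 0 else max (Q l) 0

/-- The second sign pattern. -/
noncomputable def rTwo (p Q : List ℕ → ℝ) (l : List ℕ) : ℝ :=
  if 0 ≤ p l then -max (Q l) 0 else -min (Q l) 0

lemma rOne_sub_rTwo (p Q : List ℕ → ℝ) (l : List ℕ) : rOne p Q l - rTwo p Q l = Q l := by
  unfold rOne rTwo
  split_ifs
  · have := min_add_max (Q l) 0
    linarith
  · have := min_add_max (Q l) 0
    linarith

lemma domOne {A : Set (List ℕ)} (φ ψ : L2) (hA : ∀ a l, a :: l ∈ A → l ∈ A) (u : List ℕ) :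
    |delta (rOne (pathSum (restrict A φ)) (pathSum (offHalf A ψ))) u| ≤ |offHalf A ψ u| := by
  have := delta_sign_bound (A := A) (pathSum (restrict A φ)) (pathSum (offHalf A ψ))
    (fun t => min t 0) (fun t => max t 0) abs_min_zero_sub abs_max_zero_sub (by simp) (by simp)
    hA (fun a l h => by
      simp only [pathSum]; rw [restrict_of_not_mem φ h, zero_add])
    (fun l hl => pathSum_eq_zero_of_mem hA (fun v hv => offHalf_of_mem ψ hv) hl) u
  rw [delta_pathSum] at this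
  exact this

lemma domTwo {A : Set (List ℕ)} (φ ψ : L2) (hA : ∀ a l, a :: l ∈ A → l ∈ A) (u : List ℕ) :
    |delta (rTwo (pathSum (restrict A φ)) (pathSum (offHalf A ψ))) u| ≤ |offHalf A ψ u| := by
  have := delta_sign_bound (A := A) (pathSum (restrict A φ)) (pathSum (offHalf A ψ))
    (fun t => - max t 0) (fun t => - min t 0)
    (fun a b => by
      have := abs_max_zero_sub a b
      have h3 : - max a 0 - - max b 0 = -(max a 0 - max b 0) := by ring
      rw [h3, abs_neg]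
      exact this)
    (fun a b => by
      have := abs_min_zero_sub a b
      have h3 : - min a 0 - - min b 0 = -(min a 0 - min b 0) := by ring
      rw [h3, abs_neg]
      exact this)
    (by simp) (by simp)
    hA (fun a l h => by
      simp only [pathSum]; rw [restrict_of_not_mem φ h, zero_add])
    (fun l hl => pathSum_eq_zero_of_mem hA (fun v hv => offHalf_of_mem ψ hv) hl) u
  rw [delta_pathSum] at this
  exact this

/-- the functional attached to the first sign pattern. -/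
noncomputable def psiOne (A : Set (List ℕ)) (φ ψ : L2) (hA : ∀ a l, a :: l ∈ A → l ∈ A) : L2 :=
  ofDominated (delta (rOne (pathSum (restrict A φ)) (pathSum (offHalf A ψ)))) (offHalf A ψ)
    (domOne φ ψ hA)

/-- the functional attached to the second sign pattern. -/
noncomputable def psiTwo (A : Set (List ℕ)) (φ ψ : L2) (hA : ∀ a l, a :: l ∈ A → l ∈ A) : L2 :=
  ofDominated (delta (rTwo (pathSum (restrict A φ)) (pathSum (offHalf A ψ)))) (offHalf A ψ)
    (domTwo φ ψ hA)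

lemma psiOne_of_mem (φ ψ : L2) (hA : ∀ a l, a :: l ∈ A → l ∈ A) {u : List ℕ} (hu : u ∈ A) :
    psiOne A φ ψ hA u = 0 := by
  have h := domOne φ ψ hA u
  rw [offHalf_of_mem ψ hu, abs_zero] at h
  exact abs_nonpos_iff.mp h

lemma psiTwo_of_mem (φ ψ : L2) (hA : ∀ a l, a :: l ∈ A → l ∈ A) {u : List ℕ} (hu : u ∈ A) :
    psiTwo A φ ψ hA u = 0 := by
  have h := domTwo φ ψ hA u
  rw [offHalf_of_mem ψ hu, abs_zero] at h
  exact abs_nonpos_iff.mp h

lemma norm_offHalf_le {n : ℕ} {ψ : L2} (hψ : ψ ∈ dualBall n) : ‖offHalf A ψ‖ ≤ 1 :=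
  (norm_ofDominated_le _ _ _).trans hψ.1

lemma norm_restrict_le {n : ℕ} {ψ : L2} (hψ : ψ ∈ dualBall n) : ‖restrict A ψ‖ ≤ 1 :=
  (norm_ofDominated_le _ _ _).trans hψ.1

/-- The bound on path sums of the first combination. -/
lemma abs_combo_one {α β p Q : ℝ} (hα : 0 ≤ α) (hβ : 0 ≤ β) (hαβ : α ^ 2 + β ^ 2 ≤ 1)
    (hp : |p| ≤ 1) (hQ : |Q| ≤ 1) :
    |α * p + β * (if 0 ≤ p then min Q 0 else max Q 0)| ≤ 1 := by
  have hα1 : α ≤ 1 := by nlinarith [sq_nonneg β]
  have hβ1 : β ≤ 1 := by nlinarith [sq_nonneg α]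
  rw [abs_le] at hp hQ
  rw [abs_le]
  split_ifs with h
  · have h1 : min Q 0 ≤ 0 := min_le_right _ _
    have h2 : -1 ≤ min Q 0 := le_min hQ.1 (by norm_num)
    constructor <;> nlinarith
  · rw [not_le] at h
    have h1 : 0 ≤ max Q 0 := le_max_right _ _
    have h2 : max Q 0 ≤ 1 := max_le hQ.2 (by norm_num)
    constructor <;> nlinarith

/-- The bound on path sums of the second combination. -/
lemma abs_combo_two {α β p Q : ℝ} (hα : 0 ≤ α) (hβ : 0 ≤ β) (hαβ : α ^ 2 + β ^ 2 ≤ 1)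
    (hp : |p| ≤ 1) (hQ : |Q| ≤ 1) :
    |α * p + β * (if 0 ≤ p then -max Q 0 else -min Q 0)| ≤ 1 := by
  have hα1 : α ≤ 1 := by nlinarith [sq_nonneg β]
  have hβ1 : β ≤ 1 := by nlinarith [sq_nonneg α]
  rw [abs_le] at hp hQ
  rw [abs_le]
  split_ifs with h
  · have h1 : 0 ≤ max Q 0 := le_max_right _ _
    have h2 : max Q 0 ≤ 1 := max_le hQ.2 (by norm_num)
    constructor <;> nlinarith
  · rw [not_le] at h
    have h1 : min Q 0 ≤ 0 := min_le_right _ _
    have h2 : -1 ≤ min Q 0 := le_min hQ.1 (by norm_num)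
    constructor <;> nlinarith

/-- The pairwise form of the key inequality. -/
lemma pair_inequality (n : ℕ) (hA : ∀ a l, a :: l ∈ A → l ∈ A) {x y : L2}
    (hx : ∀ u, u ∉ A → x u = 0) (hy : ∀ u ∈ A, y u = 0) {φ ψ : L2}
    (hφ : φ ∈ dualBall n) (hψ : ψ ∈ dualBall n) :
    2 * (max ⟪φ, x⟫_ℝ 0) ^ 2 + (max ⟪ψ, y⟫_ℝ 0) ^ 2 / 8 ≤
      treeNorm n (x + y) ^ 2 + treeNorm n (x - y) ^ 2 := by
  set φA := restrict A φ with hφA
  set g := offHalf A ψ with hg
  set ψ₁ := psiOne A φ ψ hA with hψ₁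
  set ψ₂ := psiTwo A φ ψ hA with hψ₂
  have hpb : ∀ l : List ℕ, l.length ≤ n → |pathSum φA l| ≤ 1 := abs_pathSum_restrict_le hA hφ.2
  have hQb : ∀ l : List ℕ, l.length ≤ n → |pathSum g l| ≤ 1 := abs_pathSum_offHalf_le hA hψ
  have hψ₁path : ∀ l, pathSum ψ₁ l = rOne (pathSum φA) (pathSum g) l := fun l =>
    pathSum_delta _ l
  have hψ₂path : ∀ l, pathSum ψ₂ l = rTwo (pathSum φA) (pathSum g) l := fun l =>
    pathSum_delta _ l
  have hφAx : ⟪φA, x⟫_ℝ = ⟪φ, x⟫_ℝ := inner_congr_left fun u => by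
    by_cases hu : u ∈ A
    · rw [hφA, restrict_of_mem φ hu]
    · rw [hx u hu, mul_zero, mul_zero]
  have hφAy : ⟪φA, y⟫_ℝ = 0 := inner_eq_zero_of_pointwise fun u => by
    by_cases hu : u ∈ A
    · rw [hy u hu, mul_zero]
    · rw [hφA, restrict_of_not_mem φ hu, zero_mul]
  have hψ₁x : ⟪ψ₁, x⟫_ℝ = 0 := inner_eq_zero_of_pointwise fun u => by
    by_cases hu : u ∈ A
    · rw [hψ₁, psiOne_of_mem φ ψ hA hu, zero_mul]
    · rw [hx u hu, mul_zero]
  have hψ₂x : ⟪ψ₂, x⟫_ℝ = 0 := inner_eq_zero_of_pointwise fun u => by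
    by_cases hu : u ∈ A
    · rw [hψ₂, psiTwo_of_mem φ ψ hA hu, zero_mul]
    · rw [hx u hu, mul_zero]
  have horth₁ : ⟪φA, ψ₁⟫_ℝ = 0 := inner_eq_zero_of_pointwise fun u => by
    by_cases hu : u ∈ A
    · rw [hψ₁, psiOne_of_mem φ ψ hA hu, mul_zero]
    · rw [hφA, restrict_of_not_mem φ hu, zero_mul]
  have horth₂ : ⟪φA, ψ₂⟫_ℝ = 0 := inner_eq_zero_of_pointwise fun u => by
    by_cases hu : u ∈ A
    · rw [hψ₂, psiTwo_of_mem φ ψ hA hu, mul_zero]
    · rw [hφA, restrict_of_not_mem φ hu, zero_mul]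
  have hφAn : ‖φA‖ ≤ 1 := norm_restrict_le hφ
  have hgn : ‖g‖ ≤ 1 := norm_offHalf_le hψ
  have hψ₁n : ‖ψ₁‖ ≤ 1 := (norm_ofDominated_le _ _ _).trans hgn
  have hψ₂n : ‖ψ₂‖ ≤ 1 := (norm_ofDominated_le _ _ _).trans hgn
  have hdiff : ⟪ψ₁, y⟫_ℝ - ⟪ψ₂, y⟫_ℝ = ⟪ψ, y⟫_ℝ / 2 := by
    have h1 : ⟪ψ₁ - ψ₂, y⟫_ℝ = ⟪(1 / 2 : ℝ) • ψ, y⟫_ℝ := inner_congr_left fun u => by
      have h2 : (ψ₁ - ψ₂) u = g u := by
        have h3 : (ψ₁ - ψ₂) u = delta (rOne (pathSum φA) (pathSum g)) u -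
            delta (rTwo (pathSum φA) (pathSum g)) u := rfl
        rw [h3, ← delta_pathSum g u]
        cases u with
        | nil => exact rOne_sub_rTwo _ _ _
        | cons a l =>
          simp only [delta]
          have h4 := rOne_sub_rTwo (pathSum φA) (pathSum g) (a :: l)
          have h5 := rOne_sub_rTwo (pathSum φA) (pathSum g) l
          linarith
      rw [h2]
      by_cases hu : u ∈ A
      · rw [hy u hu, mul_zero, mul_zero]
      · rw [hg, offHalf_of_not_mem ψ hu]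
        have h6 : ((1 / 2 : ℝ) • ψ) u = ψ u / 2 := by
          simp only [lp.coeFn_smul, Pi.smul_apply, smul_eq_mul]; ring
        rw [h6]
    rw [inner_sub_left, real_inner_smul_left] at h1
    rw [h1]; ring
  have hplus : ∀ α β : ℝ, 0 ≤ α → 0 ≤ β → α ^ 2 + β ^ 2 ≤ 1 →
      α * ⟪φ, x⟫_ℝ + β * ⟪ψ₁, y⟫_ℝ ≤ treeNorm n (x + y) := by
    intro α β hα hβ hαβ
    have hmem : α • φA + β • ψ₁ ∈ dualBall n :=
      combo_mem_dualBall horth₁ hφAn hψ₁n hα hβ hαβ fun l hl => by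
        rw [hψ₁path]
        exact abs_combo_one hα hβ hαβ (hpb l hl) (hQb l hl)
    have h := inner_le_treeNorm hmem (x + y)
    rw [inner_add_left, inner_add_right, inner_add_right, real_inner_smul_left,
      real_inner_smul_left, real_inner_smul_left, real_inner_smul_left, hφAx, hφAy, hψ₁x] at h
    simpa using h
  have hminus : ∀ α β : ℝ, 0 ≤ α → 0 ≤ β → α ^ 2 + β ^ 2 ≤ 1 →
      α * ⟪φ, x⟫_ℝ + β * (-⟪ψ₂, y⟫_ℝ) ≤ treeNorm n (x - y) := by
    intro α β hα hβ hαβ
    have hmem : α • φA + β • ψ₂ ∈ dualBall n :=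
      combo_mem_dualBall horth₂ hφAn hψ₂n hα hβ hαβ fun l hl => by
        rw [hψ₂path]
        exact abs_combo_two hα hβ hαβ (hpb l hl) (hQb l hl)
    have h := inner_le_treeNorm hmem (x - y)
    rw [inner_add_left, inner_sub_right, inner_sub_right, real_inner_smul_left,
      real_inner_smul_left, real_inner_smul_left, real_inner_smul_left, hφAx, hφAy, hψ₂x] at h
    simpa using h
  have h1 := sq_add_sq_le_of_forall hplus
  have h2 := sq_add_sq_le_of_forall hminus
  set a := ⟪φ, x⟫_ℝ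
  set u := ⟪ψ₁, y⟫_ℝ
  set v := -⟪ψ₂, y⟫_ℝ with hv
  set c := ⟪ψ, y⟫_ℝ
  have hc : c = 2 * (u + v) := by
    rw [hv]; linarith
  have hu0 : 0 ≤ max u 0 := le_max_right _ _
  have hv0 : 0 ≤ max v 0 := le_max_right _ _
  have hcle : max c 0 ≤ 2 * (max u 0 + max v 0) := by
    refine max_le ?_ (by positivity)
    rw [hc]
    have := le_max_left u 0
    have := le_max_left v 0
    linarith
  have hc2 : (max c 0) ^ 2 ≤ (2 * (max u 0 + max v 0)) ^ 2 :=
    pow_le_pow_left₀ (le_max_right _ _) hcle 2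
  nlinarith [sq_nonneg (max u 0 - max v 0)]

end KeyPiece

/-- **The key inequality**: if `A` is closed under passing to the parent, `x` lives on `A` and `y`
lives off `A`, then `N(x+y)² + N(x-y)² ≥ 2 N(x)² + N(y)²/8`. -/
theorem key_inequality (n : ℕ) {A : Set (List ℕ)} (hA : ∀ a l, a :: l ∈ A → l ∈ A) {x y : L2}
    (hx : ∀ u, u ∉ A → x u = 0) (hy : ∀ u ∈ A, y u = 0) :
    2 * treeNorm n x ^ 2 + treeNorm n y ^ 2 / 8 ≤
      treeNorm n (x + y) ^ 2 + treeNorm n (x - y) ^ 2 := by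
  set L := treeNorm n (x + y) ^ 2 + treeNorm n (x - y) ^ 2 with hL
  have h1 : ∀ ψ ∈ dualBall n, 2 * treeNorm n x ^ 2 + (max ⟪ψ, y⟫_ℝ 0) ^ 2 / 8 ≤ L := by
    intro ψ hψ
    have : treeNorm n x ^ 2 ≤ (L - (max ⟪ψ, y⟫_ℝ 0) ^ 2 / 8) / 2 :=
      treeNorm_sq_le (fun φ hφ => by
        have := pair_inequality n hA hx hy hφ hψ
        linarith)
    linarith
  have h2 : treeNorm n y ^ 2 ≤ 8 * (L - 2 * treeNorm n x ^ 2) :=
    treeNorm_sq_le (fun ψ hψ => by
      have := h1 ψ hψ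
      linarith)
  linarith

end Vale.Agent.P069
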