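import Vale.Agent.P069.Defs

/-!
# Reflexivity of Hilbertian spaces and of `ℓ₂` sums
-/

open scoped InnerProductSpace ENNReal
open Filter Topology

namespace Vale.Agent.P069

/-- A Banach space linearly homeomorphic to a Hilbert space is reflexive. -/
theorem isReflexive_of_equiv_hilbert {E H : Type*} [NormedAddCommGroup E] [NormedSpace ℝ E]
    [NormedAddCommGroup H] [InnerProductSpace ℝ H] [CompleteSpace H] (L : E ≃L[ℝ] H) :
    IsReflexive E := by
  intro Λ
  let T : H →L[ℝ] StrongDual ℝ E :=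
    ((ContinuousLinearMap.compL ℝ E H ℝ).flip (L : E →L[ℝ] H)).comp (innerSL ℝ)
  have hT : ∀ y e, T y e = ⟪y, L e⟫_ℝ := fun y e => rfl
  set h : H := (InnerProductSpace.toDual ℝ H).symm (Λ.comp T) with hh
  have hh2 : ∀ y, ⟪h, y⟫_ℝ = Λ (T y) := fun y => by
    rw [hh, InnerProductSpace.toDual_symm_apply]
    rfl
  refine ⟨L.symm h, ?_⟩
  ext f
  rw [NormedSpace.dual_def]
  set y : H := (InnerProductSpace.toDual ℝ H).symm (f.comp (L.symm : H →L[ℝ] E)) with hy
  have hy2 : ∀ v, ⟪y, v⟫_ℝ = f (L.symm v) := fun v => by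
    rw [hy, InnerProductSpace.toDual_symm_apply]
    rfl
  have hTy : T y = f := by
    ext e
    rw [hT, hy2]
    simp
  rw [← hTy, ← hh2, hT, L.apply_symm_apply, real_inner_comm]

section Sum

variable {E : ℕ → Type*} [∀ i, NormedAddCommGroup (E i)] [∀ i, NormedSpace ℝ (E i)]

/-- The coordinate projection of an `ℓ₂` sum. -/
noncomputable def proj (E : ℕ → Type*) [∀ i, NormedAddCommGroup (E i)] [∀ i, NormedSpace ℝ (E i)]
    (i : ℕ) : lp E 2 →L[ℝ] E i :=
  LinearMap.mkContinuous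
    { toFun := fun x => x i
      map_add' := fun _ _ => rfl
      map_smul' := fun _ _ => rfl } 1
    (fun x => by
      rw [one_mul]
      exact lp.norm_apply_le_norm (by norm_num) x i)

@[simp] lemma proj_apply (i : ℕ) (x : lp E 2) : proj E i x = x i := rfl

lemma proj_single_self (i : ℕ) (a : E i) : proj E i (lp.single 2 i a) = a := by
  simp

lemma proj_single_ne {i j : ℕ} (h : j ≠ i) (a : E i) : proj E j (lp.single 2 i a) = 0 := by
  rw [proj_apply, lp.single_apply_ne 2 i a h]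

/-- The restriction of a functional to a summand. -/
noncomputable def res (f : StrongDual ℝ (lp E 2)) (i : ℕ) : StrongDual ℝ (E i) :=
  f.comp (lp.singleContinuousLinearMap ℝ E 2 i)

@[simp] lemma res_apply (f : StrongDual ℝ (lp E 2)) (i : ℕ) (a : E i) :
    res f i a = f (lp.single 2 i a) := rfl

/-- The extension of a functional on a summand. -/
noncomputable def ext' (i : ℕ) : StrongDual ℝ (E i) →L[ℝ] StrongDual ℝ (lp E 2) :=
  (ContinuousLinearMap.compL ℝ (lp E 2) (E i) ℝ).flip (proj E i)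

@[simp] lemma ext'_apply (i : ℕ) (g : StrongDual ℝ (E i)) (x : lp E 2) :
    ext' i g x = g (x i) := rfl

lemma sum_sq_le_norm_sq (w : lp E 2) (s : Finset ℕ) : ∑ i ∈ s, ‖w i‖ ^ 2 ≤ ‖w‖ ^ 2 := by
  have h := lp.sum_rpow_le_norm_rpow (p := 2) (by norm_num) w s
  have h2 : (2 : ℝ≥0∞).toReal = 2 := by norm_num
  simpa only [h2, Real.rpow_two] using h

lemma norm_sum_single_sq (g : ∀ i, E i) (s : Finset ℕ) :
    ‖∑ i ∈ s, lp.single 2 i (g i)‖ ^ 2 = ∑ i ∈ s, ‖g i‖ ^ 2 := by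
  have h := lp.norm_sum_single (p := 2) (by norm_num) g s
  have h2 : (2 : ℝ≥0∞).toReal = 2 := by norm_num
  simpa only [h2, Real.rpow_two] using h

/-- From `A ≤ C √A` to `A ≤ C²`. -/
lemma le_sq_of_le_mul_sqrt {A C : ℝ} (hA : 0 ≤ A) (h : A ≤ C * Real.sqrt A) :
    A ≤ C ^ 2 := by
  rcases hA.eq_or_lt with h0 | hpos
  · rw [← h0]; positivity
  · have hs : 0 < Real.sqrt A := Real.sqrt_pos.mpr hpos
    have h1 : Real.sqrt A ≤ C := by
      have h2 : Real.sqrt A * Real.sqrt A ≤ C * Real.sqrt A := by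
        rwa [Real.mul_self_sqrt hA]
      exact le_of_mul_le_mul_right h2 hs
    calc A = Real.sqrt A ^ 2 := (Real.sq_sqrt hA).symm
      _ ≤ C ^ 2 := pow_le_pow_left₀ hs.le h1 2

/-- A functional on a reflexive space attains its norm on the unit ball. -/
lemma exists_attains_norm {F : Type*} [NormedAddCommGroup F] [NormedSpace ℝ F]
    (hF : IsReflexive F) (g : StrongDual ℝ F) : ∃ u : F, ‖u‖ ≤ 1 ∧ g u = ‖g‖ := by
  obtain ⟨Λ, hΛ, hΛg⟩ := exists_dual_vector'' ℝ g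
  obtain ⟨u, rfl⟩ := hF Λ
  refine ⟨u, ?_, ?_⟩
  · refine NormedSpace.norm_le_dual_bound ℝ u zero_le_one fun f => ?_
    calc ‖f u‖ = ‖NormedSpace.inclusionInDoubleDual ℝ F u f‖ := rfl
      _ ≤ ‖NormedSpace.inclusionInDoubleDual ℝ F u‖ * ‖f‖ := ContinuousLinearMap.le_opNorm _ _
      _ ≤ 1 * ‖f‖ := by gcongr
  · simpa using hΛg

/-- The square summability of the pieces of a functional. -/
lemma sum_res_sq_le (hE : ∀ i, IsReflexive (E i)) (f : StrongDual ℝ (lp E 2)) (s : Finset ℕ) :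
    ∑ i ∈ s, ‖res f i‖ ^ 2 ≤ ‖f‖ ^ 2 := by
  choose u hu1 hu2 using fun i => exists_attains_norm (hE i) (res f i)
  set A := ∑ i ∈ s, ‖res f i‖ ^ 2 with hA
  have hA0 : 0 ≤ A := Finset.sum_nonneg fun i _ => by positivity
  refine le_sq_of_le_mul_sqrt hA0 ?_
  set w : lp E 2 := ∑ i ∈ s, lp.single 2 i (‖res f i‖ • u i) with hw
  have hfw : f w = A := by
    rw [hw, map_sum, hA]
    refine Finset.sum_congr rfl fun i _ => ?_
    have h1 : f (lp.single 2 i (‖res f i‖ • u i)) = res f i (‖res f i‖ • u i) := rfl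
    rw [h1, map_smul, hu2, smul_eq_mul]
    ring
  have hwn : ‖w‖ ^ 2 ≤ A := by
    rw [hw, norm_sum_single_sq, hA]
    refine Finset.sum_le_sum fun i _ => ?_
    rw [norm_smul, norm_norm, mul_pow]
    have h2 : ‖u i‖ ^ 2 ≤ 1 := pow_le_one₀ (norm_nonneg _) (hu1 i)
    have h3 : 0 ≤ ‖res f i‖ ^ 2 := by positivity
    nlinarith
  have hwn2 : ‖w‖ ≤ Real.sqrt A := Real.le_sqrt_of_sq_le hwn
  calc A = f w := hfw.symm
    _ ≤ ‖f w‖ := Real.le_norm_self _
    _ ≤ ‖f‖ * ‖w‖ := f.le_opNorm w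
    _ ≤ ‖f‖ * Real.sqrt A := by gcongr

/-- The functional `f` is the norm-convergent sum of its pieces. -/
lemma hasSum_dual (hE : ∀ i, IsReflexive (E i)) (f : StrongDual ℝ (lp E 2)) :
    HasSum (fun i => ext' i (res f i)) f := by
  have hsumm : Summable fun i => ‖res f i‖ ^ 2 :=
    summable_of_sum_le (fun i => by positivity) (sum_res_sq_le hE f)
  set S := ∑' i, ‖res f i‖ ^ 2 with hS
  have hSsum : HasSum (fun i => ‖res f i‖ ^ 2) S := hsumm.hasSum
  rw [HasSum, SummationFilter.unconditional_filter, Metric.tendsto_atTop]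
  intro ε hε
  have hε2 : 0 < (ε / 2) ^ 2 := by positivity
  rw [HasSum, SummationFilter.unconditional_filter, Metric.tendsto_atTop] at hSsum
  obtain ⟨s₀, hs₀⟩ := hSsum _ hε2
  refine ⟨s₀, fun s hs => ?_⟩
  rw [dist_comm, dist_eq_norm]
  -- the tail of the squares
  have hpartial : ∑ i ∈ s, ‖res f i‖ ^ 2 ≤ S := by
    exact hsumm.sum_le_tsum s (fun i _ => by positivity)
  have htail : S - ∑ i ∈ s, ‖res f i‖ ^ 2 < (ε / 2) ^ 2 := by
    have h1 := hs₀ s₀ le_rfl
    rw [Real.dist_eq, abs_lt] at h1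
    have h2 : ∑ i ∈ s₀, ‖res f i‖ ^ 2 ≤ ∑ i ∈ s, ‖res f i‖ ^ 2 :=
      Finset.sum_le_sum_of_subset_of_nonneg hs fun i _ _ => by positivity
    linarith [h1.1]
  set τ := S - ∑ i ∈ s, ‖res f i‖ ^ 2 with hτ
  have hτ0 : 0 ≤ τ := by linarith
  have hbound : ‖f - ∑ i ∈ s, ext' i (res f i)‖ ≤ Real.sqrt τ := by
    refine ContinuousLinearMap.opNorm_le_bound _ (Real.sqrt_nonneg _) fun w => ?_
    have hlim : Tendsto (fun t : Finset ℕ => ∑ i ∈ t, f (lp.single 2 i (w i))) atTop (𝓝 (f w)) := by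
      have := f.hasSum (lp.hasSum_single (p := 2) (by norm_num) w)
      rwa [HasSum, SummationFilter.unconditional_filter] at this
    have hlim2 : Tendsto (fun t : Finset ℕ => ∑ i ∈ t, f (lp.single 2 i (w i)) -
        (∑ i ∈ s, ext' i (res f i)) w) atTop (𝓝 (f w - (∑ i ∈ s, ext' i (res f i)) w)) :=
      hlim.sub_const _
    have hle : ∀ᶠ t : Finset ℕ in atTop, ‖∑ i ∈ t, f (lp.single 2 i (w i)) -
        (∑ i ∈ s, ext' i (res f i)) w‖ ≤ Real.sqrt τ * ‖w‖ := by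
      filter_upwards [eventually_ge_atTop s] with t ht
      have hsplit : ∑ i ∈ t, f (lp.single 2 i (w i)) - (∑ i ∈ s, ext' i (res f i)) w =
          ∑ i ∈ t \ s, res f i (w i) := by
        rw [_root_.sum_apply, ← Finset.sum_sdiff ht]
        simp only [ext'_apply, res_apply]
        ring
      rw [hsplit]
      calc ‖∑ i ∈ t \ s, res f i (w i)‖ ≤ ∑ i ∈ t \ s, ‖res f i (w i)‖ := norm_sum_le _ _
        _ ≤ ∑ i ∈ t \ s, ‖res f i‖ * ‖w i‖ :=
            Finset.sum_le_sum fun i _ => (res f i).le_opNorm _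
        _ ≤ Real.sqrt (∑ i ∈ t \ s, ‖res f i‖ ^ 2) * Real.sqrt (∑ i ∈ t \ s, ‖w i‖ ^ 2) :=
            Real.sum_mul_le_sqrt_mul_sqrt _ _ _
        _ ≤ Real.sqrt τ * ‖w‖ := by
            have h1 : ∑ i ∈ t \ s, ‖res f i‖ ^ 2 ≤ τ := by
              have h2 : ∑ i ∈ t, ‖res f i‖ ^ 2 ≤ S :=
                hsumm.sum_le_tsum t (fun i _ => by positivity)
              rw [← Finset.sum_sdiff ht] at h2
              rw [hτ]
              linarith
            have h3 : Real.sqrt (∑ i ∈ t \ s, ‖w i‖ ^ 2) ≤ ‖w‖ := by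
              refine Real.sqrt_le_iff.mpr ⟨norm_nonneg _, ?_⟩
              exact sum_sq_le_norm_sq w _
            exact mul_le_mul (Real.sqrt_le_sqrt h1) h3 (Real.sqrt_nonneg _) (Real.sqrt_nonneg _)
    exact le_of_tendsto hlim2.norm hle
  refine lt_of_le_of_lt hbound ?_
  have h4 : Real.sqrt τ ≤ ε / 2 := by
    refine Real.sqrt_le_iff.mpr ⟨by positivity, htail.le⟩
  linarith

/-- An `ℓ₂` sum of reflexive spaces is reflexive. -/
theorem isReflexive_lp (hE : ∀ i, IsReflexive (E i)) : IsReflexive (lp E 2) := by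
  intro Λ
  -- the coordinates
  have hex : ∀ i, ∃ x : E i, ∀ g : StrongDual ℝ (E i), g x = Λ (ext' i g) := fun i => by
    obtain ⟨x, hx⟩ := hE i (Λ.comp (ext' i))
    exact ⟨x, fun g => by
      have := congrArg (fun L => L g) hx
      simpa using this⟩
  choose x hx using hex
  -- energy bound
  have hen : ∀ s : Finset ℕ, ∑ i ∈ s, ‖x i‖ ^ 2 ≤ ‖Λ‖ ^ 2 := by
    intro s
    choose g hg1 hg2 using fun i => exists_dual_vector'' ℝ (x i)
    set A := ∑ i ∈ s, ‖x i‖ ^ 2 with hA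
    have hA0 : 0 ≤ A := Finset.sum_nonneg fun i _ => by positivity
    refine le_sq_of_le_mul_sqrt hA0 ?_
    set f : StrongDual ℝ (lp E 2) := ∑ i ∈ s, ‖x i‖ • ext' i (g i) with hf
    have hΛf : Λ f = A := by
      rw [hf, map_sum, hA]
      refine Finset.sum_congr rfl fun i _ => ?_
      rw [map_smul, ← hx, hg2, smul_eq_mul]
      simp
      ring
    have hfn : ‖f‖ ≤ Real.sqrt A := by
      refine ContinuousLinearMap.opNorm_le_bound _ (Real.sqrt_nonneg _) fun w => ?_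
      rw [hf, _root_.sum_apply]
      calc ‖∑ i ∈ s, (‖x i‖ • ext' i (g i)) w‖ ≤ ∑ i ∈ s, ‖(‖x i‖ • ext' i (g i)) w‖ :=
            norm_sum_le _ _
        _ ≤ ∑ i ∈ s, ‖x i‖ * ‖w i‖ := by
            refine Finset.sum_le_sum fun i _ => ?_
            rw [_root_.smul_apply, norm_smul, norm_norm, ext'_apply]
            gcongr
            calc ‖g i (w i)‖ ≤ ‖g i‖ * ‖w i‖ := (g i).le_opNorm _
              _ ≤ 1 * ‖w i‖ := by gcongr; exact hg1 i
              _ = ‖w i‖ := one_mul _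
        _ ≤ Real.sqrt (∑ i ∈ s, ‖x i‖ ^ 2) * Real.sqrt (∑ i ∈ s, ‖w i‖ ^ 2) :=
            Real.sum_mul_le_sqrt_mul_sqrt _ _ _
        _ ≤ Real.sqrt A * ‖w‖ := by
            gcongr
            exact Real.sqrt_le_iff.mpr ⟨norm_nonneg _, sum_sq_le_norm_sq w _⟩
    calc A = Λ f := hΛf.symm
      _ ≤ ‖Λ f‖ := Real.le_norm_self _
      _ ≤ ‖Λ‖ * ‖f‖ := Λ.le_opNorm f
      _ ≤ ‖Λ‖ * Real.sqrt A := by gcongr
  -- the limit point
  have hmem : Memℓp x 2 := by
    refine memℓp_gen' (C := ‖Λ‖ ^ 2) fun s => ?_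
    have h2 : (2 : ℝ≥0∞).toReal = 2 := by norm_num
    simpa only [h2, Real.rpow_two] using hen s
  refine ⟨⟨x, hmem⟩, ?_⟩
  ext f
  rw [NormedSpace.dual_def]
  have h1 := f.hasSum (lp.hasSum_single (p := 2) (by norm_num) (⟨x, hmem⟩ : lp E 2))
  have h2 := Λ.hasSum (hasSum_dual hE f)
  refine h1.unique ?_
  convert h2 using 2 with i
  exact hx i (res f i)

end Sum

end Vale.Agent.P069
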