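import Vale.Agent.P069.NoAUC
import Vale.Agent.P069.Reflexive

/-!
# P069: the counterexample
-/

namespace Vale.Agent.P069

theorem treeSpace_isReflexive (n : ℕ) : IsReflexive (TreeSpace n) :=
  isReflexive_of_equiv_hilbert (TreeSpace.equivL2 n)

theorem xSpace_isReflexive : IsReflexive XSpace :=
  isReflexive_lp treeSpace_isReflexive

theorem xSpace_not_finiteDimensional : ¬ FiniteDimensional ℝ XSpace := by
  intro h
  refine xSpace_no_AUC (N := fun x => ‖x‖)
    ⟨norm_add_le, fun c x => by simp [norm_smul], 1, 1, one_pos, one_pos, fun x => by simp⟩ ?_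
  intro t _
  refine ⟨1, one_pos, fun x _ => ⟨⊥, isCof_bot_of_finiteDimensional, fun y hy hy1 => ?_⟩⟩
  rw [Submodule.mem_bot] at hy
  simp [hy] at hy1

/-- The main theorem: the reflexive space `XSpace` has an AMUC norm but no equivalent AUC norm. -/
theorem main_theorem :
    ∃ (X : Type) (_ : NormedAddCommGroup X) (_ : NormedSpace ℝ X) (_ : CompleteSpace X),
      ¬ FiniteDimensional ℝ X ∧ IsReflexive X ∧ IsAMUC (fun x : X => ‖x‖) ∧
        ¬ ∃ N : X → ℝ, IsEquivalentNorm N ∧ IsAUC N :=
  ⟨XSpace, inferInstance, inferInstance, inferInstance, xSpace_not_finiteDimensional,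
    xSpace_isReflexive, xSpace_isAMUC, fun ⟨_, hN, hA⟩ => xSpace_no_AUC hN hA⟩

end Vale.Agent.P069
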