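import Vale.Agent.P069.AMUC

/-!
# `XSpace` has no equivalent asymptotically uniformly convex norm
-/

open scoped InnerProductSpace ENNReal
open Filter Topology

namespace Vale.Agent.P069

lemma tendsto_dual_emb_pt (n : ℕ) (l : List ℕ) (f : StrongDual ℝ XSpace) :
    Tendsto (fun c : ℕ => f (emb n (pt (c :: l)))) atTop (𝓝 0) := by
  set w : L2 := (InnerProductSpace.toDual ℝ L2).symm (f.comp (emb n)) with hw
  have h1 : ∀ c : ℕ, f (emb n (pt (c :: l))) = w (c :: l) := by
    intro c
    have := InnerProductSpace.toDual_symm_apply (𝕜 := ℝ) (E := L2) (x := pt (c :: l))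
      (y := f.comp (emb n))
    rw [← hw, inner_pt_right] at this
    exact this.symm
  simp only [h1]
  have hs := (lp.memℓp w).summable (by norm_num : 0 < (2 : ℝ≥0∞).toReal)
  have h2 := hs.tendsto_cofinite_zero
  have hinj : Function.Injective (fun c : ℕ => c :: l) := fun a b h => by
    simpa using h
  have h3 := h2.comp hinj.tendsto_cofinite
  rw [Nat.cofinite_eq_atTop] at h3
  have h4 : Tendsto (fun c : ℕ => Real.sqrt (‖w (c :: l)‖ ^ (2 : ℝ≥0∞).toReal)) atTop (𝓝 0) := by
    have := (Real.continuous_sqrt.tendsto 0).comp h3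
    rw [Real.sqrt_zero] at this
    exact this
  have h5 : ∀ c : ℕ, Real.sqrt (‖w (c :: l)‖ ^ (2 : ℝ≥0∞).toReal) = |w (c :: l)| := by
    intro c
    have h6 : (2 : ℝ≥0∞).toReal = 2 := by norm_num
    rw [h6, Real.rpow_two, Real.norm_eq_abs, sq_abs, Real.sqrt_sq_eq_abs]
  simp only [h5] at h4
  exact (tendsto_zero_iff_abs_tendsto_zero _).mpr h4

/-- There is no equivalent AUC norm on `XSpace`. -/
theorem xSpace_no_AUC {N : XSpace → ℝ} (hN : IsEquivalentNorm N) : ¬ IsAUC N := by
  intro hAUC
  obtain ⟨hadd, hsmul, a, b, ha, hb, hab⟩ := hN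
  -- basic data
  have hab' : a ≤ b := by
    have h := hab (emb 0 (pt []))
    have h1 : ‖emb 0 (pt [])‖ = 1 := by rw [norm_emb, treeNorm_pt]
    rw [h1, mul_one, mul_one] at h
    exact h.1.trans h.2
  have hsub : ∀ x y, N (x - y) ≤ N x + N y := by
    intro x y
    have h1 := hadd x (-y)
    have h2 : N (-y) = N y := by
      have := hsmul (-1) y
      simpa using this
    rw [sub_eq_add_neg, ← h2]
    exact h1
  have hrev : ∀ x y, N x - N y ≤ N (x + y) := by
    intro x y
    have h1 := hsub (x + y) y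
    rw [add_sub_cancel_right] at h1
    linarith
  set t₀ : ℝ := a / (2 * b) with ht₀
  have ht₀pos : 0 < t₀ := by positivity
  obtain ⟨δ, hδ, hauc⟩ := hAUC t₀ ht₀pos
  -- the height
  obtain ⟨n, hn⟩ : ∃ n : ℕ, b / a < (1 + δ / 2) ^ n :=
    pow_unbounded_of_one_lt _ (by linarith)
  have hn' : b < a * (1 + δ / 2) ^ n := by
    rw [div_lt_iff₀ ha] at hn
    linarith
  -- the induction along a path
  have hind : ∀ k ≤ n, ∃ l : List ℕ, l.length = k ∧
      a * (1 + δ / 2) ^ k ≤ N (emb n (pathVec l)) := by
    intro k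
    induction k with
    | zero =>
      intro _
      refine ⟨[], rfl, ?_⟩
      have h := (hab (emb n (pathVec []))).1
      have h1 : ‖emb n (pathVec [])‖ = 1 := by
        rw [norm_emb]
        exact treeNorm_pt n []
      rw [h1, mul_one] at h
      simpa using h
    | succ k ih =>
      intro hk
      obtain ⟨l, hl, hl2⟩ := ih (by omega)
      set S := emb n (pathVec l) with hS
      set r := N S with hr
      have hpowge : (1 : ℝ) ≤ (1 + δ / 2) ^ k := one_le_pow₀ (by linarith)
      have hra : a ≤ r := by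
        calc a = a * 1 := (mul_one a).symm
          _ ≤ a * (1 + δ / 2) ^ k := by gcongr
          _ ≤ r := hl2
      have hrpos : 0 < r := ha.trans_le hra
      have hSnorm : ‖S‖ ≤ 1 := by
        rw [hS, norm_emb]
        exact treeNorm_pathVec_le (by omega)
      have hrb : r ≤ b := by
        calc r ≤ b * ‖S‖ := (hab S).2
          _ ≤ b * 1 := by gcongr
          _ = b := mul_one b
      have hx1 : N (r⁻¹ • S) = 1 := by
        rw [hsmul, abs_of_pos (by positivity), ← hr]
        field_simp
      obtain ⟨F, hF, hFprop⟩ := hauc (r⁻¹ • S) hx1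
      -- the small parameter
      set ε : ℝ := min (1 / 2) (a * δ / (2 * b)) with hε
      have hεpos : 0 < ε := lt_min (by norm_num) (by positivity)
      have hε1 : ε ≤ 1 / 2 := min_le_left _ _
      have hε2 : ε ≤ a * δ / (2 * b) := min_le_right _ _
      obtain ⟨c, y₀, hy₀, hclose⟩ := exists_close_of_weakNull hF
        (fun c : ℕ => emb n (pt (c :: l))) (tendsto_dual_emb_pt n l) hεpos
      set z := emb n (pt (c :: l)) with hz
      have hznorm : ‖z‖ = 1 := by rw [hz, norm_emb, treeNorm_pt]
      refine ⟨c :: l, by simp [hl], ?_⟩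
      have hsum : emb n (pathVec (c :: l)) = S + z := by
        rw [hS, hz, ← map_add, add_comm]
        rfl
      rw [hsum]
      -- lower bound for the norm of y₀
      have hy₀norm : 1 / 2 ≤ ‖y₀‖ := by
        have h1 : ‖z‖ ≤ ‖z - y₀‖ + ‖y₀‖ := by
          have := norm_add_le (z - y₀) y₀
          rwa [sub_add_cancel] at this
        rw [hznorm] at h1
        linarith
      have hNy₀ : a / 2 ≤ N y₀ := by
        calc a / 2 = a * (1 / 2) := by ring
          _ ≤ a * ‖y₀‖ := by gcongr
          _ ≤ N y₀ := (hab y₀).1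
      have hNy₀pos : 0 < N y₀ := lt_of_lt_of_le (by positivity) hNy₀
      have hy1 : N ((N y₀)⁻¹ • y₀) = 1 := by
        rw [hsmul, abs_of_pos (by positivity)]
        field_simp
      have hmem : (N y₀)⁻¹ • y₀ ∈ F := F.smul_mem _ hy₀
      have hA := hFprop _ hmem hy1
      set τ := N y₀ / r with hτ
      have hτt : t₀ ≤ τ := by
        rw [ht₀, hτ, div_le_div_iff₀ (by positivity) hrpos]
        calc a * r ≤ a * b := by gcongr
          _ = a / 2 * (2 * b) := by ring
          _ ≤ N y₀ * (2 * b) := by gcongr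
      have hB := convex_step hadd hsmul hx1 ht₀pos hτt hδ.le hA
      have hC : r⁻¹ • S + τ • ((N y₀)⁻¹ • y₀) = r⁻¹ • (S + y₀) := by
        rw [smul_smul, hτ, smul_add]
        congr 2
        field_simp
      rw [hC, hsmul, abs_of_pos (by positivity)] at hB
      have hD : r * (1 + δ) ≤ N (S + y₀) := by
        have : r⁻¹ * N (S + y₀) * r = N (S + y₀) := by field_simp
        calc r * (1 + δ) = (1 + δ) * r := by ring
          _ ≤ r⁻¹ * N (S + y₀) * r := by gcongr
          _ = N (S + y₀) := this
      have hE : N (S + y₀) ≤ N (S + z) + N (z - y₀) := by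
        have h1 := hsub (S + z) (z - y₀)
        have h2 : S + z - (z - y₀) = S + y₀ := by abel
        rwa [h2] at h1
      have hG : N (z - y₀) ≤ a * δ / 2 := by
        calc N (z - y₀) ≤ b * ‖z - y₀‖ := (hab _).2
          _ ≤ b * ε := by gcongr
          _ ≤ b * (a * δ / (2 * b)) := by gcongr
          _ = a * δ / 2 := by field_simp
      have hI : a * δ ≤ r * δ := by gcongr
      have hJ : r * (1 + δ / 2) ≤ N (S + z) := by nlinarith
      calc a * (1 + δ / 2) ^ (k + 1) = a * (1 + δ / 2) ^ k * (1 + δ / 2) := by ring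
        _ ≤ r * (1 + δ / 2) := by gcongr
        _ ≤ N (S + z) := hJ
  obtain ⟨l, hl, hl2⟩ := hind n le_rfl
  have h1 : N (emb n (pathVec l)) ≤ b := by
    calc N (emb n (pathVec l)) ≤ b * ‖emb n (pathVec l)‖ := (hab _).2
      _ ≤ b * 1 := by
        gcongr
        rw [norm_emb]
        exact treeNorm_pathVec_le (by omega)
      _ = b := mul_one b
  linarith

end Vale.Agent.P069
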