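import Vale.Agent.P069.Key

/-!
# The `ℓ₂` sum of the tree spaces
-/

open scoped InnerProductSpace ENNReal

namespace Vale.Agent.P069

/-- `TreeSpace n` and `L2` are linearly homeomorphic. -/
noncomputable def TreeSpace.equivL2 (n : ℕ) : TreeSpace n ≃L[ℝ] L2 :=
  ContinuousLinearEquiv.equivOfInverse
    ((TreeSpace.toL2 n).toLinearMap.mkContinuous ((n : ℝ) + 1)
      (fun b => norm_le_treeNorm n _))
    ((TreeSpace.toL2 n).symm.toLinearMap.mkContinuous 1
      (fun b => by
        rw [one_mul]
        exact treeNorm_le_norm n _))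
    (fun b => by simp) (fun b => by simp)

@[simp] lemma TreeSpace.equivL2_apply (n : ℕ) (b : TreeSpace n) :
    TreeSpace.equivL2 n b = TreeSpace.toL2 n b := rfl

lemma TreeSpace.norm_toL2_symm_le (n : ℕ) (b : L2) : ‖(TreeSpace.toL2 n).symm b‖ ≤ ‖b‖ :=
  treeNorm_le_norm n _

instance (n : ℕ) : CompleteSpace (TreeSpace n) :=
  (completeSpace_congr (e := (TreeSpace.equivL2 n).toEquiv)
    (TreeSpace.equivL2 n).isUniformEmbedding).mpr inferInstance

/-- The point mass at the node `u`. -/
noncomputable def pt (u : List ℕ) : L2 := lp.single 2 u (1 : ℝ)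

lemma pt_apply (u v : List ℕ) : pt u v = if v = u then 1 else 0 := by
  unfold pt
  rw [lp.single_apply]
  split_ifs with h
  · subst h; simp
  · simp [Pi.single_eq_of_ne h]

lemma norm_pt (u : List ℕ) : ‖pt u‖ = 1 := by
  unfold pt
  rw [lp.norm_single (by norm_num)]
  simp

lemma inner_pt_left (u : List ℕ) (b : L2) : ⟪pt u, b⟫_ℝ = b u := by
  unfold pt
  rw [lp.inner_single_left]
  simp

lemma inner_pt_right (u : List ℕ) (b : L2) : ⟪b, pt u⟫_ℝ = b u := by
  rw [real_inner_comm, inner_pt_left]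

lemma pathSum_pt (u l : List ℕ) : pathSum (pt u) l = if u <:+ l then 1 else 0 := by
  induction l with
  | nil =>
    simp only [pathSum, pt_apply, List.suffix_nil]
    by_cases h : u = []
    · subst h; simp
    · have h' : ([] : List ℕ) ≠ u := fun e => h e.symm
      simp [h, h']
  | cons a l ih =>
    simp only [pathSum, pt_apply, ih, List.suffix_cons_iff]
    by_cases h : a :: l = u
    · subst h
      have : ¬ (a :: l) <:+ l := by
        intro hs
        have := hs.length_le
        simp at this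
      simp [this]
    · have h' : ¬ u = a :: l := fun e => h e.symm
      simp [h, h']

lemma pt_mem_dualBall (n : ℕ) (u : List ℕ) : pt u ∈ dualBall n := by
  refine ⟨(norm_pt u).le, fun l _ => ?_⟩
  rw [pathSum_pt]
  split_ifs <;> simp

lemma abs_apply_le_treeNorm (n : ℕ) (b : L2) (u : List ℕ) : |b u| ≤ treeNorm n b := by
  have := abs_inner_le_treeNorm (pt_mem_dualBall n u) b
  rwa [inner_pt_left] at this

lemma treeNorm_pt (n : ℕ) (u : List ℕ) : treeNorm n (pt u) = 1 := by
  refine le_antisymm ((treeNorm_le_norm n _).trans (norm_pt u).le) ?_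
  have := abs_apply_le_treeNorm n (pt u) u
  rw [pt_apply, if_pos rfl, abs_one] at this
  exact this

/-- The sum of the point masses along the path from the root to `l`. -/
noncomputable def pathVec : List ℕ → L2
  | [] => pt []
  | a :: l => pt (a :: l) + pathVec l

lemma inner_pathVec (φ : L2) (l : List ℕ) : ⟪φ, pathVec l⟫_ℝ = pathSum φ l := by
  induction l with
  | nil => simp only [pathVec, pathSum, inner_pt_right]
  | cons a l ih => simp only [pathVec, pathSum, inner_add_right, inner_pt_right, ih]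

lemma treeNorm_pathVec_le {n : ℕ} {l : List ℕ} (hl : l.length ≤ n) :
    treeNorm n (pathVec l) ≤ 1 := by
  refine treeNorm_le fun φ hφ => ?_
  rw [inner_pathVec]
  exact (le_abs_self _).trans (hφ.2 l hl)

/-- The space of the counterexample: the `ℓ₂` sum of the spaces `TreeSpace n`. -/
abbrev XSpace : Type := lp (fun n : ℕ => TreeSpace n) 2

/-- The coordinates of an element of `XSpace`. -/
noncomputable def cc (x : XSpace) (n : ℕ) (u : List ℕ) : ℝ := TreeSpace.toL2 n (x n) u

lemma cc_add (x y : XSpace) (n : ℕ) (u : List ℕ) : cc (x + y) n u = cc x n u + cc y n u := rfl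

lemma cc_sub (x y : XSpace) (n : ℕ) (u : List ℕ) : cc (x - y) n u = cc x n u - cc y n u := rfl

lemma cc_smul (c : ℝ) (x : XSpace) (n : ℕ) (u : List ℕ) : cc (c • x) n u = c * cc x n u := rfl

lemma cc_zero (n : ℕ) (u : List ℕ) : cc 0 n u = 0 := rfl

lemma abs_cc_le (x : XSpace) (n : ℕ) (u : List ℕ) : |cc x n u| ≤ ‖x‖ :=
  (abs_apply_le_treeNorm n _ u).trans (lp.norm_apply_le_norm (by norm_num) x n)

/-- The coordinate functional. -/
noncomputable def coord (n : ℕ) (u : List ℕ) : StrongDual ℝ XSpace :=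
  LinearMap.mkContinuous
    { toFun := fun x => cc x n u
      map_add' := fun x y => rfl
      map_smul' := fun c x => rfl } 1
    (fun x => by
      rw [one_mul, Real.norm_eq_abs]
      exact abs_cc_le x n u)

@[simp] lemma coord_apply (n : ℕ) (u : List ℕ) (x : XSpace) : coord n u x = cc x n u := rfl

lemma hasSum_norm_sq (x : XSpace) : HasSum (fun n => ‖x n‖ ^ 2) (‖x‖ ^ 2) := by
  have h := lp.hasSum_norm (p := 2) (by norm_num) x
  have h2 : (2 : ℝ≥0∞).toReal = 2 := by norm_num
  simp only [h2, Real.rpow_two] at h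
  exact h

/-- The key inequality in `XSpace`. -/
theorem key_inequality_sum {Z : Set (ℕ × List ℕ)} (hZ : ∀ n a l, (n, a :: l) ∈ Z → (n, l) ∈ Z)
    {x y : XSpace} (hx : ∀ n u, (n, u) ∉ Z → cc x n u = 0) (hy : ∀ n u, (n, u) ∈ Z → cc y n u = 0) :
    2 * ‖x‖ ^ 2 + ‖y‖ ^ 2 / 8 ≤ ‖x + y‖ ^ 2 + ‖x - y‖ ^ 2 := by
  have h1 := ((hasSum_norm_sq x).mul_left 2).add ((hasSum_norm_sq y).div_const 8)
  have h2 := (hasSum_norm_sq (x + y)).add (hasSum_norm_sq (x - y))
  refine hasSum_le (fun n => ?_) h1 h2
  exact key_inequality n (A := {u | (n, u) ∈ Z}) (fun a l h => hZ n a l h) (x := TreeSpace.toL2 n (x n))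
    (y := TreeSpace.toL2 n (y n)) (fun u hu => hx n u hu) (fun u hu => hy n u hu)

end Vale.Agent.P069
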