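import Vale.Agent.P069.Defs

/-!
# The finite-height tree norms
-/

open scoped InnerProductSpace

namespace Vale.Agent.P069

/-- The Hilbert space `ℓ₂` over the nodes of the infinitely branching tree; nodes are lists, the
parent of `a :: l` is `l`. -/
abbrev L2 : Type := lp (fun _ : List ℕ => ℝ) 2

/-- The sum of `f` over the path from the root to the node `l`. -/
def pathSum (f : List ℕ → ℝ) : List ℕ → ℝ
  | [] => f []
  | a :: l => f (a :: l) + pathSum f l

/-- The dual ball of the height `n` norm. -/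
def dualBall (n : ℕ) : Set L2 :=
  {φ | ‖φ‖ ≤ 1 ∧ ∀ l : List ℕ, l.length ≤ n → |pathSum φ l| ≤ 1}

/-- The height `n` norm. -/
noncomputable def treeNorm (n : ℕ) (b : L2) : ℝ :=
  sSup ((fun φ : L2 => ⟪φ, b⟫_ℝ) '' dualBall n)

lemma pathSum_add (f g : List ℕ → ℝ) (l : List ℕ) :
    pathSum (f + g) l = pathSum f l + pathSum g l := by
  induction l with
  | nil => simp [pathSum]
  | cons a l ih => simp only [pathSum, Pi.add_apply, ih]; ring

lemma pathSum_smul (c : ℝ) (f : List ℕ → ℝ) (l : List ℕ) :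
    pathSum (c • f) l = c * pathSum f l := by
  induction l with
  | nil => simp [pathSum]
  | cons a l ih => simp only [pathSum, Pi.smul_apply, smul_eq_mul, ih]; ring

lemma pathSum_congr {f g : List ℕ → ℝ} (h : ∀ u, f u = g u) (l : List ℕ) :
    pathSum f l = pathSum g l := by
  rw [funext h]

lemma abs_pathSum_le (f : L2) (l : List ℕ) :
    |pathSum f l| ≤ ((l.length : ℝ) + 1) * ‖f‖ := by
  induction l with
  | nil =>
    have : ‖f []‖ ≤ ‖f‖ := lp.norm_apply_le_norm (by norm_num) f []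
    simpa [pathSum] using this
  | cons a l ih =>
    have h1 : ‖f (a :: l)‖ ≤ ‖f‖ := lp.norm_apply_le_norm (by norm_num) f (a :: l)
    rw [Real.norm_eq_abs] at h1
    simp only [pathSum, List.length_cons, Nat.cast_add, Nat.cast_one]
    calc |f (a :: l) + pathSum f l| ≤ |f (a :: l)| + |pathSum f l| := abs_add_le _ _
      _ ≤ ‖f‖ + ((l.length : ℝ) + 1) * ‖f‖ := by gcongr
      _ = _ := by ring

lemma zero_mem_dualBall (n : ℕ) : (0 : L2) ∈ dualBall n := by
  refine ⟨by simp, fun l _ => ?_⟩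
  have : pathSum (0 : L2) l = 0 := by
    have := abs_pathSum_le (0 : L2) l
    simpa using this
  rw [this]
  simp

lemma neg_mem_dualBall {n : ℕ} {φ : L2} (h : φ ∈ dualBall n) : -φ ∈ dualBall n := by
  refine ⟨by simpa using h.1, fun l hl => ?_⟩
  have : pathSum (⇑(-φ)) l = - pathSum φ l := by
    have h1 : (⇑(-φ) : List ℕ → ℝ) = (-1 : ℝ) • (⇑φ) := by
      ext u; simp
    rw [h1, pathSum_smul]; ring
  rw [this, abs_neg]
  exact h.2 l hl

lemma bddAbove_image (n : ℕ) (b : L2) : BddAbove ((fun φ : L2 => ⟪φ, b⟫_ℝ) '' dualBall n) := by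
  refine ⟨‖b‖, ?_⟩
  rintro _ ⟨φ, hφ, rfl⟩
  calc ⟪φ, b⟫_ℝ ≤ ‖φ‖ * ‖b‖ := real_inner_le_norm φ b
    _ ≤ 1 * ‖b‖ := by gcongr; exact hφ.1
    _ = ‖b‖ := one_mul _

lemma inner_le_treeNorm {n : ℕ} {φ : L2} (h : φ ∈ dualBall n) (b : L2) :
    ⟪φ, b⟫_ℝ ≤ treeNorm n b :=
  le_csSup (bddAbove_image n b) ⟨φ, h, rfl⟩

lemma treeNorm_le {n : ℕ} {b : L2} {C : ℝ} (h : ∀ φ ∈ dualBall n, ⟪φ, b⟫_ℝ ≤ C) :
    treeNorm n b ≤ C := by
  refine csSup_le ⟨_, 0, zero_mem_dualBall n, rfl⟩ ?_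
  rintro _ ⟨φ, hφ, rfl⟩
  exact h φ hφ

lemma abs_inner_le_treeNorm {n : ℕ} {φ : L2} (h : φ ∈ dualBall n) (b : L2) :
    |⟪φ, b⟫_ℝ| ≤ treeNorm n b := by
  rw [abs_le]
  constructor
  · have := inner_le_treeNorm (neg_mem_dualBall h) b
    rw [inner_neg_left] at this
    linarith
  · exact inner_le_treeNorm h b

lemma treeNorm_nonneg (n : ℕ) (b : L2) : 0 ≤ treeNorm n b := by
  have := inner_le_treeNorm (zero_mem_dualBall n) b
  simpa using this

lemma treeNorm_le_norm (n : ℕ) (b : L2) : treeNorm n b ≤ ‖b‖ := by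
  refine treeNorm_le fun φ hφ => ?_
  calc ⟪φ, b⟫_ℝ ≤ ‖φ‖ * ‖b‖ := real_inner_le_norm φ b
    _ ≤ 1 * ‖b‖ := by gcongr; exact hφ.1
    _ = ‖b‖ := one_mul _

lemma treeNorm_add_le (n : ℕ) (b c : L2) : treeNorm n (b + c) ≤ treeNorm n b + treeNorm n c := by
  refine treeNorm_le fun φ hφ => ?_
  rw [inner_add_right]
  exact add_le_add (inner_le_treeNorm hφ b) (inner_le_treeNorm hφ c)

lemma treeNorm_smul_le (n : ℕ) (c : ℝ) (b : L2) : treeNorm n (c • b) ≤ |c| * treeNorm n b := by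
  refine treeNorm_le fun φ hφ => ?_
  rw [real_inner_smul_right]
  calc c * ⟪φ, b⟫_ℝ ≤ |c * ⟪φ, b⟫_ℝ| := le_abs_self _
    _ = |c| * |⟪φ, b⟫_ℝ| := abs_mul _ _
    _ ≤ |c| * treeNorm n b := by gcongr; exact abs_inner_le_treeNorm hφ b

lemma treeNorm_smul (n : ℕ) (c : ℝ) (b : L2) : treeNorm n (c • b) = |c| * treeNorm n b := by
  refine le_antisymm (treeNorm_smul_le n c b) ?_
  by_cases hc : c = 0
  · subst hc
    simpa using treeNorm_nonneg n _
  · have h := treeNorm_smul_le n c⁻¹ (c • b)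
    rw [smul_smul, inv_mul_cancel₀ hc, one_smul, abs_inv] at h
    have hpos : 0 < |c| := abs_pos.mpr hc
    calc |c| * treeNorm n b ≤ |c| * (|c|⁻¹ * treeNorm n (c • b)) := by gcongr
      _ = treeNorm n (c • b) := by field_simp

lemma treeNorm_neg (n : ℕ) (b : L2) : treeNorm n (-b) = treeNorm n b := by
  have := treeNorm_smul n (-1) b
  simpa using this

/-- The lower comparison with the Hilbert norm. -/
lemma norm_le_treeNorm (n : ℕ) (b : L2) : ‖b‖ ≤ ((n : ℝ) + 1) * treeNorm n b := by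
  by_cases hb : b = 0
  · subst hb
    simpa using mul_nonneg (by positivity : (0 : ℝ) ≤ (n : ℝ) + 1) (treeNorm_nonneg n 0)
  have hpos : 0 < ‖b‖ := norm_pos_iff.mpr hb
  have hn : (0 : ℝ) < (n : ℝ) + 1 := by positivity
  set c : ℝ := (((n : ℝ) + 1) * ‖b‖)⁻¹ with hc
  have hcpos : 0 < c := by positivity
  have hmem : c • b ∈ dualBall n := by
    constructor
    · rw [norm_smul, Real.norm_eq_abs, abs_of_pos hcpos, hc]
      have h1 : (1 : ℝ) ≤ (n : ℝ) + 1 := by
        have : (0 : ℝ) ≤ n := by positivity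
        linarith
      calc ((((n : ℝ) + 1) * ‖b‖)⁻¹) * ‖b‖ = ((n : ℝ) + 1)⁻¹ := by field_simp
        _ ≤ 1 := inv_le_one_of_one_le₀ h1
    · intro l hl
      have h1 := abs_pathSum_le (c • b) l
      rw [norm_smul, Real.norm_eq_abs, abs_of_pos hcpos] at h1
      refine h1.trans ?_
      have h2 : (l.length : ℝ) + 1 ≤ (n : ℝ) + 1 := by
        have : (l.length : ℝ) ≤ n := by exact_mod_cast hl
        linarith
      calc ((l.length : ℝ) + 1) * (c * ‖b‖) ≤ ((n : ℝ) + 1) * (c * ‖b‖) := by gcongr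
        _ = 1 := by rw [hc]; field_simp
  have h := inner_le_treeNorm hmem b
  rw [real_inner_smul_left, real_inner_self_eq_norm_sq, hc] at h
  have h3 : ((((n : ℝ) + 1) * ‖b‖)⁻¹) * ‖b‖ ^ 2 = ‖b‖ / ((n : ℝ) + 1) := by
    field_simp
  rw [h3, div_le_iff₀ hn] at h
  linarith

lemma treeNorm_eq_zero_iff (n : ℕ) (b : L2) : treeNorm n b = 0 ↔ b = 0 := by
  constructor
  · intro h
    have := norm_le_treeNorm n b
    rw [h, mul_zero] at this
    exact norm_le_zero_iff.mp this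
  · rintro rfl
    have := treeNorm_smul n 0 (0 : L2)
    simpa using this

/-- The space `L2` with the height `n` norm. -/
def TreeSpace (_ : ℕ) : Type := L2

noncomputable instance (n : ℕ) : AddCommGroup (TreeSpace n) :=
  inferInstanceAs (AddCommGroup L2)

noncomputable instance (n : ℕ) : Module ℝ (TreeSpace n) :=
  inferInstanceAs (Module ℝ L2)

/-- The identity map from `TreeSpace n` to `L2`, as a linear equivalence. -/
noncomputable def TreeSpace.toL2 (n : ℕ) : TreeSpace n ≃ₗ[ℝ] L2 := LinearEquiv.refl ℝ L2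

noncomputable instance (n : ℕ) : Norm (TreeSpace n) := ⟨fun b => treeNorm n (TreeSpace.toL2 n b)⟩

lemma TreeSpace.norm_def {n : ℕ} (b : TreeSpace n) : ‖b‖ = treeNorm n (TreeSpace.toL2 n b) := rfl

lemma TreeSpace.core (n : ℕ) : NormedSpace.Core ℝ (TreeSpace n) where
  norm_nonneg b := treeNorm_nonneg n _
  norm_smul c b := by
    rw [TreeSpace.norm_def, TreeSpace.norm_def, map_smul, treeNorm_smul, Real.norm_eq_abs]
  norm_triangle b c := by
    rw [TreeSpace.norm_def, TreeSpace.norm_def, TreeSpace.norm_def, map_add]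
    exact treeNorm_add_le n _ _
  norm_eq_zero_iff b := by
    rw [TreeSpace.norm_def, treeNorm_eq_zero_iff]
    simp

noncomputable instance (n : ℕ) : NormedAddCommGroup (TreeSpace n) :=
  NormedAddCommGroup.ofCore (TreeSpace.core n)

noncomputable instance (n : ℕ) : NormedSpace ℝ (TreeSpace n) :=
  NormedSpace.ofCore (TreeSpace.core n)

end Vale.Agent.P069
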